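import Vale.Agent.P279.Defs
import Vale.Agent.P279.Final

open Vale.Agent.P279

theorem Vale.Agent.Results.P279.A_full.result :
    ∀ r : ℕ, 10 ≤ r →
      ∃ Z : ℕ → Set (Fin r → Projectivization ℂ (Fin 3 → ℂ)),
        (∀ n, IsZariskiClosed (Z n) ∧ ∃ p, Function.Injective p ∧ p ∉ Z n) ∧
        (∃ p, Function.Injective p ∧ ∀ n, p ∉ Z n) ∧
        ∀ p : Fin r → Projectivization ℂ (Fin 3 → ℂ), Function.Injective p → (∀ n, p ∉ Z n) →
          ∀ (d : ℕ) (F : MvPolynomial (Fin 3) ℂ), 1 ≤ d → F ≠ 0 → F.IsHomogeneous d →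
            ∀ m : Fin r → ℕ, (∀ i, (m i : ℕ∞) ≤ mult F (p i)) →
              ∑ i, (m i : ℝ) < (d : ℝ) * Real.sqrt (r : ℝ) :=
  nagata
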